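import Vale.Agent.Lib.P037L.BridgeL

/-!
# P037: the polynomial removal conjecture holds for every 2 x 2 pattern
The new cases are `I`, `J` and the eight patterns with exactly one or exactly three ones
(all equivalent to `[[1,1],[1,0]]` by reversals and complement).
-/

namespace Vale.Agent.Results.P037.AllTwoByTwo

open Vale.Agent.Lib.P037

theorem result :
    (∀ H : Matrix (Fin 2) (Fin 2) Bool, PolyRemoval H) ∧
    (∀ n : ℕ, 1 ≤ n → ∀ ε : ℝ, 0 < ε → ε < 1 → ∀ A : Matrix (Fin n) (Fin n) Bool,
        ε ≤ distFree !![true, true; true, false] A →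
          (1 / 2 ^ 200) * ε ^ 36 * (n : ℝ) ^ 4 ≤ numCopies !![true, true; true, false] A) :=
  ⟨Vale.Agent.Lib.P037L.polyRemoval_two, Vale.Agent.Lib.P037L.explicit_patL⟩

end Vale.Agent.Results.P037.AllTwoByTwo
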