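import Vale.Agent.Lib.P037B.Factor
import Vale.Agent.Lib.P037L.BridgeL

/-!
# P037: polynomial removal is inherited by ordered blow-ups, and holds for all block patterns
(a) if `H` has the polynomial removal property then so has every ordered blow-up
`H.submatrix ρ γ` (`ρ, γ` monotone surjections: rows and columns of `H` are repeated);
(b) hence, for every `k`, every `k × k` pattern that is constant on the four blocks cut out by a
row threshold and a column threshold (a blow-up of a `2 × 2` pattern) has the property.
-/

namespace Vale.Agent.Results.P037.BlockPatterns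

open Vale.Agent.Lib.P037

theorem result :
    (∀ (k k' : ℕ) (H : Matrix (Fin k) (Fin k) Bool) (ρ γ : Fin k' → Fin k),
        Monotone ρ → Function.Surjective ρ → Monotone γ → Function.Surjective γ →
        PolyRemoval H → PolyRemoval (H.submatrix ρ γ)) ∧
    (∀ (k : ℕ) (P : Matrix (Fin 2) (Fin 2) Bool) (ρ γ : Fin k → Fin 2),
        Monotone ρ → Function.Surjective ρ → Monotone γ → Function.Surjective γ →
        PolyRemoval (P.submatrix ρ γ)) :=
  ⟨fun _ _ H ρ γ h1 h2 h3 h4 h => Vale.Agent.Lib.P037B.polyRemoval_blowup H ρ γ h1 h2 h3 h4 h,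
   fun _ P ρ γ h1 h2 h3 h4 => Vale.Agent.Lib.P037B.polyRemoval_blowup P ρ γ h1 h2 h3 h4
      (Vale.Agent.Lib.P037L.polyRemoval_two P)⟩

end Vale.Agent.Results.P037.BlockPatterns
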