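import Vale.Agent.Lib.P037.Bridge

/-!
# P037: polynomial removal for the two 2 x 2 permutation patterns
`I = [[1,0],[0,1]]` and `J = [[0,1],[1,0]]`, with explicit constants `c = 2^(-200)`, `C = 28`.
-/

namespace Vale.Agent.Results.P037.IdentityPattern

open Vale.Agent.Lib.P037

theorem result :
    (∀ n : ℕ, 1 ≤ n → ∀ ε : ℝ, 0 < ε → ε < 1 → ∀ A : Matrix (Fin n) (Fin n) Bool,
        ε ≤ distFree patI A → (1 / 2 ^ 200) * ε ^ 28 * (n : ℝ) ^ 4 ≤ numCopies patI A) ∧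
    (∀ n : ℕ, 1 ≤ n → ∀ ε : ℝ, 0 < ε → ε < 1 → ∀ A : Matrix (Fin n) (Fin n) Bool,
        ε ≤ distFree patJ A → (1 / 2 ^ 200) * ε ^ 28 * (n : ℝ) ^ 4 ≤ numCopies patJ A) ∧
    PolyRemoval patI ∧ PolyRemoval patJ :=
  ⟨explicit_patI, explicit_patJ, polyRemoval_patI, polyRemoval_patJ⟩

end Vale.Agent.Results.P037.IdentityPattern
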