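import Vale.Agent.Lib.P037X.BridgeX

/-!
# P037: polynomial removal for the patterns `r(i) XOR s(j)` with `s` a threshold word
(1) every `K × K` pattern `H(i,j) = r(i) XOR [b ≤ j]`: two column blocks, ARBITRARY row word `r`
(any number of row blocks; every row is `0…01…1` or `1…10…0`);
(2) the transposed patterns; (3) the property of Q1 is inherited by ordered blow-ups;
(4) all patterns that are constant on the four blocks of a `2 × 2` block partition.
-/

namespace Vale.Agent.Results.P037.XorPatterns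

open Vale.Agent.Lib.P037

theorem result :
    (∀ (K : ℕ) (r : Fin K → Bool) (b : ℕ), 0 < b → b < K →
        PolyRemoval (Matrix.of fun (i j : Fin K) => xor (r i) (decide (b ≤ j.val)))) ∧
    (∀ (K : ℕ) (r : Fin K → Bool) (b : ℕ), 0 < b → b < K →
        PolyRemoval (Matrix.of fun (i j : Fin K) => xor (decide (b ≤ i.val)) (r j))) ∧
    (∀ (k k' : ℕ) (H : Matrix (Fin k) (Fin k) Bool) (ρ γ : Fin k' → Fin k),
        Monotone ρ → Function.Surjective ρ → Monotone γ → Function.Surjective γ →
        PolyRemoval H → PolyRemoval (H.submatrix ρ γ)) ∧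
    (∀ (k : ℕ) (P : Matrix (Fin 2) (Fin 2) Bool) (ρ γ : Fin k → Fin 2),
        Monotone ρ → Function.Surjective ρ → Monotone γ → Function.Surjective γ →
        PolyRemoval (P.submatrix ρ γ)) :=
  ⟨Vale.Agent.Lib.P037X.polyRemoval_xor_rows, Vale.Agent.Lib.P037X.polyRemoval_xor_cols,
   fun _ _ H ρ γ h1 h2 h3 h4 h => Vale.Agent.Lib.P037B.polyRemoval_blowup H ρ γ h1 h2 h3 h4 h,
   fun _ P ρ γ h1 h2 h3 h4 => Vale.Agent.Lib.P037B.polyRemoval_blowup P ρ γ h1 h2 h3 h4
      (Vale.Agent.Lib.P037L.polyRemoval_two P)⟩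

end Vale.Agent.Results.P037.XorPatterns
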